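import Vale.Agent.Lib.P331.Lift

open MeasureTheory
open scoped ENNReal NNReal

namespace Vale.Agent.Results.P331.LogLogAlmighty

/-- One sample per element, almighty adversary, every finite matroid: ratio at least
`1 / (54 * (⌈log₂ ⌈log₂ r⌉⌉ + 2))`, where `r` is the rank. The rule (`accept`, with a finite uniform
seed) is fixed before the laws `D` and the adversary `π`; it sees its seed, the sample vector, the
accepted set, the arriving element and its value. The order `π` may depend on the seed, the samples,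
the values and the laws. -/
theorem result {E : Type} [Fintype E] (M : Matroid E) (hE : M.E = Set.univ) :
    ∃ (Seed : Type) (_ : Fintype Seed) (_ : Nonempty Seed)
      (accept : Seed → (E → ℝ≥0) → Finset E → E → ℝ≥0 → Prop),
      (∀ ρ A e, MeasurableSet {p : (E → ℝ≥0) × ℝ≥0 | accept ρ p.1 A e p.2}) ∧
      ∀ (D : E → Measure ℝ≥0) [∀ e, IsProbabilityMeasure (D e)]
        (π : Seed → (E → ℝ≥0) → (E → ℝ≥0) → (Fin (Fintype.card E) ≃ E)),
        (1 / (54 * ((Nat.clog 2 (Nat.clog 2 M.eRank.toNat) : ℝ≥0∞) + 2))) *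
            ∫⁻ v, Vale.Agent.Lib.P331.opt M v ∂(Measure.pi D)
          ≤ (Fintype.card Seed : ℝ≥0∞)⁻¹ * ∑ ρ, ∫⁻ p, ∑ e ∈ Vale.Agent.Lib.P331.run M (accept ρ) p.1 p.2
              (List.ofFn (π ρ p.1 p.2)), (p.2 e : ℝ≥0∞) ∂((Measure.pi D).prod (Measure.pi D)) :=
  Vale.Agent.Lib.P331.main M hE

end Vale.Agent.Results.P331.LogLogAlmighty
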